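import Mathlib

namespace Vale.Agent.H6.Ryser

open Finset

variable {V : Type} [Fintype V] [DecidableEq V]

/-- number of edges of `E` through `v` -/
def deg (E : Finset (Finset V)) (v : V) : ℕ := (E.filter (fun e => v ∈ e)).card

/-- Caro-Wei bound. -/
theorem caro_wei {α : Type} [DecidableEq α] (R : α → α → Prop) [DecidableRel R]
    (hR : ∀ x y, R x y → R y x) (s : Finset α) :
    ∃ I ⊆ s, (∀ x ∈ I, ∀ y ∈ I, x ≠ y → ¬ R x y) ∧
      ∑ x ∈ s, (1 : ℚ) / (1 + ((s.filter (fun y => y ≠ x ∧ R x y)).card : ℚ)) ≤ I.card := by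
  induction hn : s.card using Nat.strong_induction_on generalizing s with
  | _ n ih =>
    rcases s.eq_empty_or_nonempty with rfl | hne
    · exact ⟨∅, subset_refl _, by simp, by simp⟩
    · obtain ⟨x0, hx0, hmin⟩ := Finset.exists_min_image s
        (fun x => (s.filter (fun y => y ≠ x ∧ R x y)).card) hne
      set N := s.filter (fun y => y ≠ x0 ∧ R x0 y) with hN
      have hx0N : x0 ∉ N := by simp [hN]
      set A := insert x0 N with hA
      have hAs : A ⊆ s := by
        intro y hy
        rcases Finset.mem_insert.1 hy with rfl | hy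
        · exact hx0
        · exact (Finset.mem_filter.1 hy).1
      have hlt : (s \ A).card < n := by
        rw [← hn]
        refine Finset.card_lt_card ⟨Finset.sdiff_subset, fun h => ?_⟩
        exact (Finset.mem_sdiff.1 (h hx0)).2 (Finset.mem_insert_self _ _)
      obtain ⟨I', hI's, hI', hsum⟩ := ih _ hlt (s \ A) rfl
      refine ⟨insert x0 I', ?_, ?_, ?_⟩
      · intro y hy
        rcases Finset.mem_insert.1 hy with rfl | hy
        · exact hx0
        · exact (Finset.mem_sdiff.1 (hI's hy)).1
      · have key : ∀ y ∈ I', ¬ R x0 y := by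
          intro y hy hr
          have hy' := Finset.mem_sdiff.1 (hI's hy)
          apply hy'.2
          by_cases h : y = x0
          · rw [h]; exact Finset.mem_insert_self _ _
          · exact Finset.mem_insert_of_mem (Finset.mem_filter.2 ⟨hy'.1, h, hr⟩)
        intro x hx y hy hxy
        rcases Finset.mem_insert.1 hx with hx1 | hx1
        · rcases Finset.mem_insert.1 hy with hy1 | hy1
          · exact absurd (hx1.trans hy1.symm) hxy
          · rw [hx1]; exact key y hy1
        · rcases Finset.mem_insert.1 hy with hy1 | hy1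
          · rw [hy1]; exact fun h => key x hx1 (hR _ _ h)
          · exact hI' x hx1 y hy1 hxy
      · have hx0I : x0 ∉ I' := fun h =>
          (Finset.mem_sdiff.1 (hI's h)).2 (Finset.mem_insert_self _ _)
        rw [Finset.card_insert_of_notMem hx0I, ← Finset.sum_sdiff hAs]
        have h1 : ∑ x ∈ A, (1 : ℚ) / (1 + ((s.filter (fun y => y ≠ x ∧ R x y)).card : ℚ)) ≤ 1 := by
          calc ∑ x ∈ A, (1 : ℚ) / (1 + ((s.filter (fun y => y ≠ x ∧ R x y)).card : ℚ))
              ≤ ∑ x ∈ A, (1 : ℚ) / (1 + (N.card : ℚ)) := by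
                refine Finset.sum_le_sum fun x hx => ?_
                have : N.card ≤ (s.filter (fun y => y ≠ x ∧ R x y)).card := hmin x (hAs hx)
                have h' : (N.card : ℚ) ≤ ((s.filter (fun y => y ≠ x ∧ R x y)).card : ℚ) := by
                  exact_mod_cast this
                have h0 : (0 : ℚ) ≤ (N.card : ℚ) := Nat.cast_nonneg _
                exact one_div_le_one_div_of_le (by linarith) (by linarith)
            _ = 1 := by
                rw [Finset.sum_const, hA, Finset.card_insert_of_notMem hx0N, nsmul_eq_mul]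
                push_cast
                have h0 : (0 : ℚ) ≤ (N.card : ℚ) := Nat.cast_nonneg _
                field_simp
                ring
        have h2 : ∑ x ∈ s \ A, (1 : ℚ) / (1 + ((s.filter (fun y => y ≠ x ∧ R x y)).card : ℚ))
            ≤ ∑ x ∈ s \ A,
              (1 : ℚ) / (1 + (((s \ A).filter (fun y => y ≠ x ∧ R x y)).card : ℚ)) := by
          refine Finset.sum_le_sum fun x _ => ?_
          have : ((s \ A).filter (fun y => y ≠ x ∧ R x y)).card
              ≤ (s.filter (fun y => y ≠ x ∧ R x y)).card :=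
            Finset.card_le_card (Finset.filter_subset_filter _ Finset.sdiff_subset)
          have h' : (((s \ A).filter (fun y => y ≠ x ∧ R x y)).card : ℚ)
              ≤ ((s.filter (fun y => y ≠ x ∧ R x y)).card : ℚ) := by exact_mod_cast this
          have h0 : (0 : ℚ) ≤ (((s \ A).filter (fun y => y ≠ x ∧ R x y)).card : ℚ) :=
            Nat.cast_nonneg _
          exact one_div_le_one_div_of_le (by linarith) (by linarith)
        push_cast
        linarith

/-- any family of nonempty edges of `E` has a cover of size at most `(size + ν)/2` -/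
theorem pair_cover (ν : ℕ) (E : Finset (Finset V))
    (hν : ∀ M ⊆ E, (∀ e ∈ M, ∀ f ∈ M, e ≠ f → Disjoint e f) → M.card ≤ ν)
    (hne : ∀ e ∈ E, e.Nonempty) (s : Finset (Finset V)) (hs : s ⊆ E) :
    ∃ C : Finset V, (∀ e ∈ s, ∃ v ∈ C, v ∈ e) ∧ 2 * C.card ≤ s.card + ν := by
  induction hn : s.card using Nat.strong_induction_on generalizing s with
  | _ n ih =>
    by_cases hp : ∀ e ∈ s, ∀ f ∈ s, e ≠ f → Disjoint e f
    · have hcard := hν s hs hp
      have hch : ∀ e ∈ s, ∃ v, v ∈ e := fun e he => hne e (hs he)
      refine ⟨s.attach.image (fun e => (hch e.1 e.2).choose), fun e he =>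
        ⟨(hch e he).choose, Finset.mem_image.2 ⟨⟨e, he⟩, Finset.mem_attach _ _, rfl⟩,
          (hch e he).choose_spec⟩, ?_⟩
      have := Finset.card_image_le (s := s.attach) (f := fun e => (hch e.1 e.2).choose)
      rw [Finset.card_attach] at this
      omega
    · push Not at hp
      obtain ⟨e, he, f, hf, hef, hdis⟩ := hp
      rw [Finset.not_disjoint_iff] at hdis
      obtain ⟨v, hve, hvf⟩ := hdis
      have hfe : f ∈ s.erase e := Finset.mem_erase.2 ⟨Ne.symm hef, hf⟩
      have hc1 : (s.erase e).card = s.card - 1 := Finset.card_erase_of_mem he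
      have hc2 : ((s.erase e).erase f).card = (s.erase e).card - 1 := Finset.card_erase_of_mem hfe
      have hpos : 0 < (s.erase e).card := Finset.card_pos.2 ⟨f, hfe⟩
      obtain ⟨C, hC, hCc⟩ := ih ((s.erase e).erase f).card (by omega) ((s.erase e).erase f)
        (fun g hg => hs (Finset.mem_of_mem_erase (Finset.mem_of_mem_erase hg))) rfl
      refine ⟨insert v C, ?_, ?_⟩
      · intro g hg
        by_cases h1 : g = e
        · exact ⟨v, Finset.mem_insert_self _ _, h1 ▸ hve⟩
        · by_cases h2 : g = f
          · exact ⟨v, Finset.mem_insert_self _ _, h2 ▸ hvf⟩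
          · obtain ⟨u, hu, hug⟩ := hC g (Finset.mem_erase.2 ⟨h2, Finset.mem_erase.2 ⟨h1, hg⟩⟩)
            exact ⟨u, Finset.mem_insert_of_mem hu, hug⟩
      · have := Finset.card_insert_le v C
        omega

end Vale.Agent.H6.Ryser
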