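import Vale.Agent.H6.Ryser.Thm

namespace Vale.Agent.H6.Ryser

open Finset

variable {V : Type} [Fintype V] [DecidableEq V]

theorem near {r a b : ℕ} (hr : 2 ≤ r) (ha : 1 ≤ a) (hb : 1 ≤ b) {part : V → Fin r}
    {E : Finset (Finset V)}
    (h : IsPartite r part E)
    (hdeg : ∀ e ∈ E, ∀ v ∈ e, a ≤ deg E v ∧ deg E v ≤ b)
    (hP : (r * (a + b - 1) + 1 : ℚ) ^ 2 ≤ 4 * (a * b) * (r * (r - 1)))
    (ν : ℕ) (hν : ∀ M ⊆ E, (∀ e ∈ M, ∀ f ∈ M, e ≠ f → Disjoint e f) → M.card ≤ ν) :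
    ∃ C : Finset V, (∀ e ∈ E, ∃ v ∈ C, v ∈ e) ∧ C.card ≤ (r - 1) * ν := by
  have hr0 : (0 : ℚ) < r := by exact_mod_cast (by omega : 0 < r)
  have hr2 : (2 : ℚ) ≤ r := by exact_mod_cast hr
  have ha0 : (0 : ℚ) < a := by exact_mod_cast (by omega : 0 < a)
  have hb0 : (0 : ℚ) < b := by exact_mod_cast (by omega : 0 < b)
  have hab : (0 : ℚ) < (a : ℚ) * b := mul_pos ha0 hb0
  have hK0 : (0 : ℚ) ≤ (a * b : ℚ) * (r * (r - 1)) :=
    mul_nonneg hab.le (mul_nonneg hr0.le (by linarith))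
  let x : Fin r → ℕ := fun i => (univ.filter (fun v => part v = i ∧ 1 ≤ deg E v)).card
  obtain ⟨i, -, hi⟩ := Finset.exists_min_image (univ : Finset (Fin r)) x
    ⟨⟨0, by omega⟩, mem_univ _⟩
  refine ⟨univ.filter (fun v => part v = i ∧ 1 ≤ deg E v), ?_, ?_⟩
  · intro e he
    obtain ⟨v, ⟨hv, hvi⟩, _⟩ := h e he i
    exact ⟨v, Finset.mem_filter.2 ⟨mem_univ _, hvi, deg_pos he hv⟩, hv⟩
  have hsum : (∑ j, (x j : ℚ)) = ∑ e ∈ E, ∑ v ∈ e, 1 / (deg E v : ℚ) := by
    rw [double]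
    have h1 : ∀ j, (x j : ℚ) = ∑ v, if part v = j then
        (if 1 ≤ deg E v then (1 : ℚ) else 0) else 0 := by
      intro j
      simp only [x]
      rw [Finset.card_filter]
      push_cast
      refine Finset.sum_congr rfl fun v _ => ?_
      by_cases hp : part v = j
      · by_cases h2 : 1 ≤ deg E v
        · simp [hp, h2]
        · simp [hp, h2]
      · simp [hp]
    rw [Finset.sum_congr rfl (fun j _ => h1 j), Finset.sum_comm]
    refine Finset.sum_congr rfl fun v _ => ?_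
    rw [Finset.sum_ite_eq]
    simp only [mem_univ, if_true]
    by_cases h2 : 1 ≤ deg E v
    · have h0 : (deg E v : ℚ) ≠ 0 := by
        have : 0 < deg E v := by omega
        exact_mod_cast this.ne'
      rw [if_pos h2]
      field_simp
    · have h0 : deg E v = 0 := by omega
      simp [h0]
  have hmin : (r : ℚ) * x i ≤ ∑ j, (x j : ℚ) := by
    have h1 : ∑ _j : Fin r, (x i : ℚ) ≤ ∑ j, (x j : ℚ) :=
      Finset.sum_le_sum fun j _ => by exact_mod_cast hi j (mem_univ j)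
    simpa using h1
  have hedge : ∀ e ∈ E, (a * b : ℚ) * ∑ v ∈ e, 1 / (deg E v : ℚ)
      ≤ ((a * b : ℚ) * (r * (r - 1))) *
        (1 / (1 + ((E.filter (fun f => f ≠ e ∧ ¬ Disjoint e f)).card : ℚ))) := by
    intro e he
    set Yn : ℕ := ∑ v ∈ e, (deg E v - 1) with hYn
    have hYc : (Yn : ℚ) = ∑ v ∈ e, ((deg E v : ℚ) - 1) := by
      rw [hYn]
      push_cast
      refine Finset.sum_congr rfl fun v hv => ?_
      have := deg_pos he hv
      rw [Nat.cast_sub this]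
      norm_num
    have hcard : (e.card : ℚ) = r := by exact_mod_cast h.card he
    have hY0 : (0 : ℚ) ≤ Yn := Nat.cast_nonneg _
    have hgg : (a * b : ℚ) * ∑ v ∈ e, 1 / (deg E v : ℚ) ≤ r * (a + b - 1) - Yn := by
      rw [Finset.mul_sum]
      calc ∑ v ∈ e, (a * b : ℚ) * (1 / (deg E v : ℚ))
          ≤ ∑ v ∈ e, (((a : ℚ) + b - 1) - ((deg E v : ℚ) - 1)) := by
            refine Finset.sum_le_sum fun v hv => ?_
            have h1 : (1 : ℚ) ≤ deg E v := by exact_mod_cast deg_pos he hv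
            have h2 : (a : ℚ) ≤ deg E v := by exact_mod_cast (hdeg e he v hv).1
            have h3 : (deg E v : ℚ) ≤ b := by exact_mod_cast (hdeg e he v hv).2
            rw [mul_one_div, div_le_iff₀ (by linarith)]
            nlinarith [mul_nonneg (sub_nonneg.2 h2) (sub_nonneg.2 h3)]
        _ = r * (a + b - 1) - Yn := by
            rw [hYc, Finset.sum_sub_distrib, Finset.sum_const, nsmul_eq_mul, hcard]
    have hnb : ((E.filter (fun f => f ≠ e ∧ ¬ Disjoint e f)).card : ℚ) ≤ Yn := by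
      exact_mod_cast nbr_bound E e he
    have hnb0 : (0 : ℚ) ≤ ((E.filter (fun f => f ≠ e ∧ ¬ Disjoint e f)).card : ℚ) :=
      Nat.cast_nonneg _
    have hk : (r : ℚ) * (a + b - 1) - Yn
        ≤ ((a * b : ℚ) * (r * (r - 1))) * (1 / (1 + (Yn : ℚ))) := by
      rw [mul_one_div, le_div_iff₀ (by linarith)]
      nlinarith [sq_nonneg ((r : ℚ) * (a + b - 1) - 1 - 2 * Yn)]
    refine le_trans hgg (le_trans hk ?_)
    refine mul_le_mul_of_nonneg_left ?_ hK0
    exact one_div_le_one_div_of_le (by linarith) (by linarith)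
  obtain ⟨I, hIE, hI, hIsum⟩ := caro_wei (fun e f : Finset V => ¬ Disjoint e f)
    (fun e f hef => fun hd => hef hd.symm) E
  have hIν : (I.card : ℚ) ≤ ν := by
    have := hν I hIE fun e he f hf hef => by
      have := hI e he f hf hef
      simpa using this
    exact_mod_cast this
  have htot : (a * b : ℚ) * ∑ e ∈ E, ∑ v ∈ e, 1 / (deg E v : ℚ)
      ≤ ((a * b : ℚ) * (r * (r - 1))) * ν := by
    rw [Finset.mul_sum]
    calc ∑ e ∈ E, (a * b : ℚ) * ∑ v ∈ e, 1 / (deg E v : ℚ)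
        ≤ ∑ e ∈ E, ((a * b : ℚ) * (r * (r - 1))) *
          (1 / (1 + ((E.filter (fun f => f ≠ e ∧ ¬ Disjoint e f)).card : ℚ))) :=
          Finset.sum_le_sum hedge
      _ = ((a * b : ℚ) * (r * (r - 1))) * ∑ e ∈ E,
          (1 / (1 + ((E.filter (fun f => f ≠ e ∧ ¬ Disjoint e f)).card : ℚ))) := by
          rw [Finset.mul_sum]
      _ ≤ ((a * b : ℚ) * (r * (r - 1))) * ν :=
          mul_le_mul_of_nonneg_left (le_trans hIsum hIν) hK0
  have htot' : ∑ e ∈ E, ∑ v ∈ e, 1 / (deg E v : ℚ) ≤ (r * (r - 1)) * ν := by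
    have htot2 : (a * b : ℚ) * ∑ e ∈ E, ∑ v ∈ e, 1 / (deg E v : ℚ)
        ≤ (a * b : ℚ) * ((r * (r - 1)) * ν) := by
      rw [← mul_assoc ((a : ℚ) * b)]
      exact htot
    exact le_of_mul_le_mul_left htot2 hab
  have hfin : (r : ℚ) * (x i) ≤ r * ((r - 1) * ν) := by
    calc (r : ℚ) * x i ≤ (r * (r - 1)) * ν := le_trans hmin (hsum ▸ htot')
      _ = r * ((r - 1) * ν) := by ring
  have hfin' : (x i : ℚ) ≤ (r - 1) * ν := le_of_mul_le_mul_left hfin hr0
  have hcast : (((r - 1) * ν : ℕ) : ℚ) = ((r : ℚ) - 1) * ν := by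
    rw [Nat.cast_mul, Nat.cast_sub (by omega)]
    norm_num
  have : (x i : ℚ) ≤ (((r - 1) * ν : ℕ) : ℚ) := by rw [hcast]; exact hfin'
  exact_mod_cast this

end Vale.Agent.H6.Ryser
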