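import Vale.Agent.H6.Ryser.Main

namespace Vale.Agent.H6.Ryser

open Finset

variable {V : Type} [Fintype V] [DecidableEq V]

/-- `E` is the edge set of an `r`-partite `r`-uniform hypergraph with parts given by `part` -/
def IsPartite (r : ℕ) (part : V → Fin r) (E : Finset (Finset V)) : Prop :=
  ∀ e ∈ E, ∀ i : Fin r, ∃! v, v ∈ e ∧ part v = i

theorem IsPartite.card {r : ℕ} {part : V → Fin r} {E : Finset (Finset V)}
    (h : IsPartite r part E) {e : Finset V} (he : e ∈ E) : e.card = r := by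
  have : e.card = (univ : Finset (Fin r)).card := by
    refine Finset.card_bij (fun v _ => part v) (fun _ _ => mem_univ _) ?_ ?_
    · intro a ha b hb hab
      exact (h e he (part a)).unique ⟨ha, rfl⟩ ⟨hb, hab.symm⟩
    · intro i _
      obtain ⟨v, ⟨hv, hvi⟩, _⟩ := h e he i
      exact ⟨v, hv, hvi⟩
  simpa using this

theorem deg_pos {E : Finset (Finset V)} {e : Finset V} (he : e ∈ E) {v : V} (hv : v ∈ e) :
    1 ≤ deg E v := Finset.card_pos.2 ⟨e, Finset.mem_filter.2 ⟨he, hv⟩⟩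

theorem double (E : Finset (Finset V)) (F : V → ℚ) :
    ∑ e ∈ E, ∑ v ∈ e, F v = ∑ v, (deg E v : ℚ) * F v := by
  have h1 : ∀ e ∈ E, ∑ v ∈ e, F v = ∑ v, if v ∈ e then F v else 0 := by
    intro e _
    rw [← Finset.sum_filter]
    congr 1
    ext v
    simp
  rw [Finset.sum_congr rfl h1, Finset.sum_comm]
  refine Finset.sum_congr rfl fun v _ => ?_
  rw [← Finset.sum_filter, Finset.sum_const, nsmul_eq_mul]
  rfl

theorem nbr_bound (E : Finset (Finset V)) (e : Finset V) (he : e ∈ E) :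
    (E.filter (fun f => f ≠ e ∧ ¬ Disjoint e f)).card ≤ ∑ v ∈ e, (deg E v - 1) := by
  have hsub : E.filter (fun f => f ≠ e ∧ ¬ Disjoint e f)
      ⊆ e.biUnion (fun v => (E.filter (fun f => v ∈ f)).erase e) := by
    intro f hf
    obtain ⟨hfE, hfe, hd⟩ := Finset.mem_filter.1 hf
    rw [Finset.not_disjoint_iff] at hd
    obtain ⟨v, hve, hvf⟩ := hd
    exact Finset.mem_biUnion.2 ⟨v, hve, Finset.mem_erase.2 ⟨hfe, Finset.mem_filter.2 ⟨hfE, hvf⟩⟩⟩
  refine le_trans (Finset.card_le_card hsub) (le_trans Finset.card_biUnion_le ?_)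
  refine Finset.sum_le_sum fun v hv => ?_
  rw [Finset.card_erase_of_mem (Finset.mem_filter.2 ⟨he, hv⟩)]
  rfl

/-- weight -/
def gg (D x : ℕ) : ℚ := if x = 1 then (D : ℚ) + 1 else 2 * (D : ℚ) / x

theorem part_cover {r : ℕ} {part : V → Fin r} {E : Finset (Finset V)}
    (h : IsPartite r part E) (D : ℕ) (hD : 2 ≤ D) (ν : ℕ)
    (hν : ∀ M ⊆ E, (∀ e ∈ M, ∀ f ∈ M, e ≠ f → Disjoint e f) → M.card ≤ ν) (i : Fin r) :
    ∃ C : Finset V, (∀ e ∈ E, ∃ v ∈ C, v ∈ e) ∧
      2 * D * C.card ≤ 2 * D * (univ.filter (fun v => part v = i ∧ 2 ≤ deg E v)).card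
        + (D + 1) * (univ.filter (fun v => part v = i ∧ deg E v = 1)).card + (D - 1) * ν := by
  have hne : ∀ e ∈ E, e.Nonempty := fun e he => by
    obtain ⟨v, ⟨hv, _⟩, _⟩ := h e he i
    exact ⟨v, hv⟩
  set A := univ.filter (fun v => part v = i ∧ 2 ≤ deg E v) with hA
  set A1 := univ.filter (fun v => part v = i ∧ deg E v = 1) with hA1
  set B := A1.biUnion (fun v => E.filter (fun f => v ∈ f)) with hB
  have hBE : B ⊆ E := by
    intro f hf
    obtain ⟨v, _, hv⟩ := Finset.mem_biUnion.1 hf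
    exact (Finset.mem_filter.1 hv).1
  have hBc : B.card ≤ A1.card := by
    refine le_trans Finset.card_biUnion_le ?_
    rw [Finset.card_eq_sum_ones]
    refine Finset.sum_le_sum fun v hv => ?_
    exact (Finset.mem_filter.1 hv).2.2.le
  obtain ⟨C, hC, hCc⟩ := pair_cover ν E hν hne B hBE
  have hcov : ∀ e ∈ E, ∃ v ∈ A ∪ C, v ∈ e := by
    intro e he
    obtain ⟨v, ⟨hv, hvi⟩, _⟩ := h e he i
    by_cases h2 : 2 ≤ deg E v
    · exact ⟨v, Finset.mem_union_left _ (Finset.mem_filter.2 ⟨mem_univ _, hvi, h2⟩), hv⟩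
    · have h1 : deg E v = 1 := by
        have := deg_pos he hv
        omega
      have : e ∈ B := Finset.mem_biUnion.2
        ⟨v, Finset.mem_filter.2 ⟨mem_univ _, hvi, h1⟩, Finset.mem_filter.2 ⟨he, hv⟩⟩
      obtain ⟨u, hu, hue⟩ := hC e this
      exact ⟨u, Finset.mem_union_right _ hu, hue⟩
  have hcov0 : ∀ e ∈ E, ∃ v ∈ A ∪ A1, v ∈ e := by
    intro e he
    obtain ⟨v, ⟨hv, hvi⟩, _⟩ := h e he i
    by_cases h2 : 2 ≤ deg E v
    · exact ⟨v, Finset.mem_union_left _ (Finset.mem_filter.2 ⟨mem_univ _, hvi, h2⟩), hv⟩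
    · have h1 : deg E v = 1 := by
        have := deg_pos he hv
        omega
      exact ⟨v, Finset.mem_union_right _ (Finset.mem_filter.2 ⟨mem_univ _, hvi, h1⟩), hv⟩
  have hc0 := Finset.card_union_le A A1
  have hc1 := Finset.card_union_le A C
  obtain ⟨D', rfl⟩ : ∃ D', D = D' + 1 := ⟨D - 1, by omega⟩
  simp only [Nat.add_sub_cancel]
  by_cases hcase : (A ∪ A1).card ≤ (A ∪ C).card
  · refine ⟨A ∪ A1, hcov0, ?_⟩
    have h2 : 2 * (A ∪ A1).card ≤ 2 * A.card + A1.card + ν := by omega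
    nlinarith [Nat.mul_le_mul_left D' h2]
  · refine ⟨A ∪ C, hcov, ?_⟩
    have h2 : 2 * (A ∪ C).card ≤ 2 * A.card + A1.card + ν := by omega
    have h3 : (A ∪ C).card ≤ A.card + A1.card := by omega
    nlinarith [Nat.mul_le_mul_left D' h2]

theorem main {r D : ℕ} (hr : 2 ≤ r) (hD : 2 ≤ D) {part : V → Fin r} {E : Finset (Finset V)}
    (h : IsPartite r part E) (hdeg : ∀ v, deg E v ≤ D)
    (hP : ∀ y : ℕ, (y : ℚ) ≤ r * (D - 1) →
      ((r : ℚ) * (D + 1) - y) * (y + 1) ≤ r * (2 * D * r - 3 * D + 1))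
    (ν : ℕ) (hν : ∀ M ⊆ E, (∀ e ∈ M, ∀ f ∈ M, e ≠ f → Disjoint e f) → M.card ≤ ν) :
    ∃ C : Finset V, (∀ e ∈ E, ∃ v ∈ C, v ∈ e) ∧ C.card ≤ (r - 1) * ν := by
  have hr0 : (0 : ℚ) < r := by exact_mod_cast (by omega : 0 < r)
  have hr2 : (2 : ℚ) ≤ r := by exact_mod_cast hr
  have hD0 : (0 : ℚ) < D := by exact_mod_cast (by omega : 0 < D)
  have hD2 : (2 : ℚ) ≤ D := by exact_mod_cast hD
  have hK0 : (0 : ℚ) ≤ r * (2 * D * r - 3 * D + 1) := by
    refine mul_nonneg hr0.le ?_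
    nlinarith
  -- per part quantities
  let x : Fin r → ℕ := fun i => 2 * D * (univ.filter (fun v => part v = i ∧ 2 ≤ deg E v)).card
        + (D + 1) * (univ.filter (fun v => part v = i ∧ deg E v = 1)).card
  obtain ⟨i, -, hi⟩ := Finset.exists_min_image (univ : Finset (Fin r)) x
    ⟨⟨0, by omega⟩, mem_univ _⟩
  obtain ⟨C, hC, hCc⟩ := part_cover h D hD ν hν i
  refine ⟨C, hC, ?_⟩
  -- sum over the parts
  have hsum : (∑ j, (x j : ℚ)) = ∑ e ∈ E, ∑ v ∈ e, gg D (deg E v) := by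
    rw [double]
    have h1 : ∀ j, (x j : ℚ) = ∑ v, if part v = j then
        (if 2 ≤ deg E v then 2 * (D : ℚ) else if deg E v = 1 then (D : ℚ) + 1 else 0) else 0 := by
      intro j
      simp only [x]
      push_cast
      rw [Finset.card_filter, Finset.card_filter]
      push_cast
      rw [Finset.mul_sum, Finset.mul_sum, ← Finset.sum_add_distrib]
      refine Finset.sum_congr rfl fun v _ => ?_
      by_cases hp : part v = j
      · by_cases h2 : 2 ≤ deg E v
        · have h1 : deg E v ≠ 1 := by omega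
          simp [hp, h2, h1]
        · by_cases h1 : deg E v = 1
          · simp [hp, h1]
          · simp [hp, h2, h1]
      · simp [hp]
    rw [Finset.sum_congr rfl (fun j _ => h1 j), Finset.sum_comm]
    refine Finset.sum_congr rfl fun v _ => ?_
    rw [Finset.sum_ite_eq]
    simp only [mem_univ, if_true, gg]
    by_cases h2 : 2 ≤ deg E v
    · have h1 : deg E v ≠ 1 := by omega
      have h0 : (deg E v : ℚ) ≠ 0 := by
        have : 0 < deg E v := by omega
        exact_mod_cast this.ne'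
      rw [if_pos h2, if_neg h1]
      field_simp
    · by_cases h1 : deg E v = 1
      · simp [h1]
      · have h0 : deg E v = 0 := by omega
        simp [h0]
  have hmin : (r : ℚ) * x i ≤ ∑ j, (x j : ℚ) := by
    have h1 : ∑ _j : Fin r, (x i : ℚ) ≤ ∑ j, (x j : ℚ) :=
      Finset.sum_le_sum fun j _ => by exact_mod_cast hi j (mem_univ j)
    simpa using h1
  -- per edge inequality
  have hedge : ∀ e ∈ E, ∑ v ∈ e, gg D (deg E v)
      ≤ (r * (2 * D * r - 3 * D + 1)) *
        (1 / (1 + ((E.filter (fun f => f ≠ e ∧ ¬ Disjoint e f)).card : ℚ))) := by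
    intro e he
    set Yn : ℕ := ∑ v ∈ e, (deg E v - 1) with hYn
    have hYc : (Yn : ℚ) = ∑ v ∈ e, ((deg E v : ℚ) - 1) := by
      rw [hYn]
      push_cast
      refine Finset.sum_congr rfl fun v hv => ?_
      have := deg_pos he hv
      rw [Nat.cast_sub this]
      norm_num
    have hcard : (e.card : ℚ) = r := by exact_mod_cast h.card he
    have hY0 : (0 : ℚ) ≤ Yn := Nat.cast_nonneg _
    have hY1 : (Yn : ℚ) ≤ r * (D - 1) := by
      rw [hYc]
      calc ∑ v ∈ e, ((deg E v : ℚ) - 1) ≤ ∑ v ∈ e, ((D : ℚ) - 1) :=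
            Finset.sum_le_sum fun v _ => by
            have : (deg E v : ℚ) ≤ D := by exact_mod_cast hdeg v
            linarith
        _ = r * (D - 1) := by rw [Finset.sum_const, nsmul_eq_mul, hcard]
    have hgg : ∑ v ∈ e, gg D (deg E v) ≤ r * (D + 1) - Yn := by
      calc ∑ v ∈ e, gg D (deg E v) ≤ ∑ v ∈ e, (((D : ℚ) + 1) - ((deg E v : ℚ) - 1)) := by
            refine Finset.sum_le_sum fun v hv => ?_
            have h1 : (1 : ℚ) ≤ deg E v := by exact_mod_cast deg_pos he hv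
            have h2 : (deg E v : ℚ) ≤ D := by exact_mod_cast hdeg v
            unfold gg
            split_ifs with hd
            · rw [hd]
              push_cast
              linarith
            · have h3 : (2 : ℚ) ≤ deg E v := by
                have := deg_pos he hv
                have : 2 ≤ deg E v := by omega
                exact_mod_cast this
              rw [div_le_iff₀ (by linarith)]
              nlinarith
        _ = r * (D + 1) - Yn := by
            rw [hYc, Finset.sum_sub_distrib, Finset.sum_const, nsmul_eq_mul, hcard]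
    have hnb : ((E.filter (fun f => f ≠ e ∧ ¬ Disjoint e f)).card : ℚ) ≤ Yn := by
      exact_mod_cast nbr_bound E e he
    have hnb0 : (0 : ℚ) ≤ ((E.filter (fun f => f ≠ e ∧ ¬ Disjoint e f)).card : ℚ) :=
      Nat.cast_nonneg _
    have hk : (r : ℚ) * (D + 1) - Yn ≤ (r * (2 * D * r - 3 * D + 1)) * (1 / (1 + (Yn : ℚ))) := by
      rw [mul_one_div, le_div_iff₀ (by linarith)]
      have := hP Yn hY1
      linarith
    refine le_trans hgg (le_trans hk ?_)
    refine mul_le_mul_of_nonneg_left ?_ hK0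
    exact one_div_le_one_div_of_le (by linarith) (by linarith)
  -- Caro-Wei
  obtain ⟨I, hIE, hI, hIsum⟩ := caro_wei (fun e f : Finset V => ¬ Disjoint e f)
    (fun e f hef => fun hd => hef hd.symm) E
  have hIν : (I.card : ℚ) ≤ ν := by
    have := hν I hIE fun e he f hf hef => by
      have := hI e he f hf hef
      simpa using this
    exact_mod_cast this
  have htot : ∑ e ∈ E, ∑ v ∈ e, gg D (deg E v) ≤ (r * (2 * D * r - 3 * D + 1)) * ν := by
    calc ∑ e ∈ E, ∑ v ∈ e, gg D (deg E v)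
        ≤ ∑ e ∈ E, (r * (2 * D * r - 3 * D + 1)) *
          (1 / (1 + ((E.filter (fun f => f ≠ e ∧ ¬ Disjoint e f)).card : ℚ))) :=
          Finset.sum_le_sum hedge
      _ = (r * (2 * D * r - 3 * D + 1)) * ∑ e ∈ E,
          (1 / (1 + ((E.filter (fun f => f ≠ e ∧ ¬ Disjoint e f)).card : ℚ))) := by
          rw [Finset.mul_sum]
      _ ≤ (r * (2 * D * r - 3 * D + 1)) * ν :=
          mul_le_mul_of_nonneg_left (le_trans hIsum hIν) hK0
  have hCc' : (2 : ℚ) * D * C.card ≤ x i + (D - 1) * ν := by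
    have h1 : ((2 * D * C.card : ℕ) : ℚ) ≤ ((x i + (D - 1) * ν : ℕ) : ℚ) := by
      exact_mod_cast hCc
    rw [Nat.cast_add, Nat.cast_mul (D - 1), Nat.cast_sub (by omega : 1 ≤ D)] at h1
    push_cast at h1
    linarith
  have hfin : (r : ℚ) * (2 * D * C.card) ≤ r * (2 * D * ((r - 1) * ν)) := by
    calc (r : ℚ) * (2 * D * C.card) ≤ r * (x i + (D - 1) * ν) :=
          mul_le_mul_of_nonneg_left hCc' hr0.le
      _ = r * x i + r * ((D - 1) * ν) := by ring
      _ ≤ (r * (2 * D * r - 3 * D + 1)) * ν + r * ((D - 1) * ν) := by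
          linarith [hmin, hsum ▸ htot]
      _ = r * (2 * D * ((r - 1) * ν)) := by ring
  have hfin' : (C.card : ℚ) ≤ (r - 1) * ν := by
    have h1 := le_of_mul_le_mul_left hfin hr0
    exact le_of_mul_le_mul_left h1 (by positivity)
  have hcast : (((r - 1) * ν : ℕ) : ℚ) = ((r : ℚ) - 1) * ν := by
    rw [Nat.cast_mul, Nat.cast_sub (by omega)]
    norm_num
  have : (C.card : ℚ) ≤ (((r - 1) * ν : ℕ) : ℚ) := by rw [hcast]; exact hfin'
  exact_mod_cast this

theorem int_sq (t : ℤ) : 0 ≤ t * (t - 1) := by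
  rcases le_or_gt t 0 with h | h
  · exact mul_nonneg_of_nonpos_of_nonpos h (by linarith)
  · exact mul_nonneg (by linarith) (by linarith)

theorem numeric (r D : ℕ)
    (h : (D = 2 ∧ 4 ≤ r) ∨ (D = 3 ∧ 5 ≤ r) ∨ (D = 4 ∧ 8 ≤ r) ∨ (D = 5 ∧ 17 ≤ r))
    (y : ℕ) (hy : (y : ℚ) ≤ r * (D - 1)) :
    ((r : ℚ) * (D + 1) - y) * (y + 1) ≤ r * (2 * D * r - 3 * D + 1) := by
  have hy0 : (0 : ℚ) ≤ y := Nat.cast_nonneg _
  rcases h with ⟨rfl, hr⟩ | ⟨rfl, hr⟩ | ⟨rfl, hr⟩ | ⟨rfl, hr⟩
  · have hr' : (4 : ℚ) ≤ r := by exact_mod_cast hr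
    push_cast at hy ⊢
    have hy' : (y : ℚ) ≤ r := by linarith
    nlinarith [mul_nonneg (sub_nonneg.2 hy') (by linarith : (0 : ℚ) ≤ 2 * r - y - 1)]
  · have hr' : (5 : ℚ) ≤ r := by exact_mod_cast hr
    have hz := int_sq (2 * (r : ℤ) - y)
    have hz' : (0 : ℚ) ≤ (2 * (r : ℚ) - y) * ((2 * (r : ℚ) - y) - 1) := by exact_mod_cast hz
    push_cast at hy ⊢
    nlinarith
  · have hr' : (8 : ℚ) ≤ r := by exact_mod_cast hr
    push_cast at hy ⊢
    nlinarith [sq_nonneg (5 * (r : ℚ) - 1 - 2 * y)]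
  · have hr' : (17 : ℚ) ≤ r := by exact_mod_cast hr
    have hz := int_sq (3 * (r : ℤ) - y)
    have hz' : (0 : ℚ) ≤ (3 * (r : ℚ) - y) * ((3 * (r : ℚ) - y) - 1) := by exact_mod_cast hz
    push_cast at hy ⊢
    nlinarith

end Vale.Agent.H6.Ryser
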