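import Vale.Agent.H6.Ryser.Thm

namespace Vale.Agent.H6.Ryser

open Finset

variable {V : Type} [Fintype V] [DecidableEq V]

theorem variance {r : ℕ} (hr : 2 ≤ r) {part : V → Fin r} {E : Finset (Finset V)}
    (h : IsPartite r part E)
    (hP : (univ.filter (fun v => 1 ≤ deg E v)).card * ∑ v, (deg E v) ^ 2
      ≤ r * (r - 1) * E.card ^ 2
        + (r - 1) * E.card * (univ.filter (fun v => 1 ≤ deg E v)).card)
    (ν : ℕ) (hν : ∀ M ⊆ E, (∀ e ∈ M, ∀ f ∈ M, e ≠ f → Disjoint e f) → M.card ≤ ν) :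
    ∃ C : Finset V, (∀ e ∈ E, ∃ v ∈ C, v ∈ e) ∧ C.card ≤ (r - 1) * ν := by
  have hr0 : (0 : ℚ) < r := by exact_mod_cast (by omega : 0 < r)
  have hr2 : (2 : ℚ) ≤ r := by exact_mod_cast hr
  rcases E.eq_empty_or_nonempty with rfl | hEne
  · exact ⟨∅, by simp, by simp⟩
  have hm0 : (0 : ℚ) < E.card := by exact_mod_cast Finset.card_pos.2 hEne
  let x : Fin r → ℕ := fun i => (univ.filter (fun v => part v = i ∧ 1 ≤ deg E v)).card
  obtain ⟨i, -, hi⟩ := Finset.exists_min_image (univ : Finset (Fin r)) x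
    ⟨⟨0, by omega⟩, mem_univ _⟩
  refine ⟨univ.filter (fun v => part v = i ∧ 1 ≤ deg E v), ?_, ?_⟩
  · intro e he
    obtain ⟨v, ⟨hv, hvi⟩, _⟩ := h e he i
    exact ⟨v, Finset.mem_filter.2 ⟨mem_univ _, hvi, deg_pos he hv⟩, hv⟩
  set N : ℕ := (univ.filter (fun v => 1 ≤ deg E v)).card with hN
  have hsum : (∑ j, x j) = N := by
    have h1 : ∀ j, x j = ∑ v, if part v = j then (if 1 ≤ deg E v then 1 else 0) else 0 := by
      intro j
      simp only [x]
      rw [Finset.card_filter]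
      refine Finset.sum_congr rfl fun v _ => ?_
      by_cases hp : part v = j
      · by_cases h2 : 1 ≤ deg E v
        · simp [hp, h2]
        · simp [hp, h2]
      · simp [hp]
    rw [Finset.sum_congr rfl (fun j _ => h1 j), Finset.sum_comm, hN, Finset.card_filter]
    refine Finset.sum_congr rfl fun v _ => ?_
    rw [Finset.sum_ite_eq]
    simp
  have hmin : r * x i ≤ N := by
    rw [← hsum]
    have h1 : ∑ _j : Fin r, x i ≤ ∑ j, x j := Finset.sum_le_sum fun j _ => hi j (mem_univ j)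
    simpa using h1
  -- Caro-Wei and Cauchy-Schwarz
  obtain ⟨I, hIE, hI, hIsum⟩ := caro_wei (fun e f : Finset V => ¬ Disjoint e f)
    (fun e f hef => fun hd => hef hd.symm) E
  have hIν : (I.card : ℚ) ≤ ν := by
    have := hν I hIE fun e he f hf hef => by
      have := hI e he f hf hef
      simpa using this
    exact_mod_cast this
  let dl : Finset V → ℚ := fun e => ((E.filter (fun f => f ≠ e ∧ ¬ Disjoint e f)).card : ℚ)
  have hdl : ∀ e, 0 ≤ dl e := fun e => Nat.cast_nonneg _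
  have hcs : ((E.card : ℚ)) ^ 2 ≤ (∑ e ∈ E, 1 / (1 + dl e)) * ∑ e ∈ E, (1 + dl e) := by
    have := Finset.sum_sq_le_sum_mul_sum_of_sq_eq_mul E (r := fun _ => (1 : ℚ))
      (f := fun e => 1 / (1 + dl e)) (g := fun e => 1 + dl e)
      (fun e _ => by have := hdl e; positivity) (fun e _ => by have := hdl e; positivity)
      (fun e _ => by
        have := hdl e
        have h1 : (1 : ℚ) + dl e ≠ 0 := by positivity
        field_simp)
    simpa using this
  have hYle : ∑ e ∈ E, (1 + dl e) ≤ ∑ e ∈ E, (1 + ∑ v ∈ e, ((deg E v : ℚ) - 1)) := by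
    refine Finset.sum_le_sum fun e he => ?_
    have h1 : dl e ≤ ((∑ v ∈ e, (deg E v - 1) : ℕ) : ℚ) := by
      show ((E.filter (fun f => f ≠ e ∧ ¬ Disjoint e f)).card : ℚ) ≤ _
      exact Nat.cast_le.2 (nbr_bound E e he)
    have h2 : ((∑ v ∈ e, (deg E v - 1) : ℕ) : ℚ) = ∑ v ∈ e, ((deg E v : ℚ) - 1) := by
      push_cast
      refine Finset.sum_congr rfl fun v hv => ?_
      have := deg_pos he hv
      rw [Nat.cast_sub this]
      norm_num
    linarith
  have hYeq : ∑ e ∈ E, (1 + ∑ v ∈ e, ((deg E v : ℚ) - 1))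
      = (∑ v, ((deg E v : ℚ)) ^ 2) - (r - 1) * E.card := by
    rw [Finset.sum_add_distrib, double]
    have h1 : ∑ v, (deg E v : ℚ) * ((deg E v : ℚ) - 1)
        = (∑ v, ((deg E v : ℚ)) ^ 2) - ∑ v, (deg E v : ℚ) * 1 := by
      rw [← Finset.sum_sub_distrib]
      refine Finset.sum_congr rfl fun v _ => by ring
    have h2 : ∑ v, (deg E v : ℚ) * 1 = r * E.card := by
      rw [← double]
      have : ∀ e ∈ E, ∑ _v ∈ e, (1 : ℚ) = r := by
        intro e he
        rw [Finset.sum_const, nsmul_eq_mul, mul_one]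
        exact_mod_cast h.card he
      rw [Finset.sum_congr rfl this, Finset.sum_const, nsmul_eq_mul]
      ring
    rw [h1, h2]
    simp only [Finset.sum_const, nsmul_eq_mul, mul_one]
    ring
  set T : ℚ := (∑ v, ((deg E v : ℚ)) ^ 2) - (r - 1) * E.card with hT
  have hTpos : 0 < T := by
    have h1 : (E.card : ℚ) ≤ ∑ e ∈ E, (1 + dl e) := by
      have : ∑ e ∈ E, (1 : ℚ) ≤ ∑ e ∈ E, (1 + dl e) :=
        Finset.sum_le_sum fun e _ => by have := hdl e; linarith
      simpa using this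
    linarith [hYle, hYeq]
  have hνm : ((E.card : ℚ)) ^ 2 ≤ ν * T := by
    have hpos : 0 ≤ ∑ e ∈ E, (1 + dl e) := Finset.sum_nonneg fun e _ => by
      have := hdl e; linarith
    have hν0 : (0 : ℚ) ≤ ν := Nat.cast_nonneg _
    calc ((E.card : ℚ)) ^ 2 ≤ (∑ e ∈ E, 1 / (1 + dl e)) * ∑ e ∈ E, (1 + dl e) := hcs
      _ ≤ ν * ∑ e ∈ E, (1 + dl e) := mul_le_mul_of_nonneg_right (le_trans hIsum hIν) hpos
      _ ≤ ν * T := mul_le_mul_of_nonneg_left (by linarith [hYle, hYeq]) hν0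
  have hP' : (N : ℚ) * T ≤ r * (r - 1) * (E.card : ℚ) ^ 2 := by
    have h1 : ((N * ∑ v, (deg E v) ^ 2 : ℕ) : ℚ)
        ≤ ((r * (r - 1) * E.card ^ 2 + (r - 1) * E.card * N : ℕ) : ℚ) := by
      exact_mod_cast hP
    push_cast [Nat.cast_sub (by omega : 1 ≤ r)] at h1
    rw [hT]
    linarith
  have hNle : (N : ℚ) ≤ r * ((r - 1) * ν) := by
    have h1 : (N : ℚ) * T ≤ (r * ((r - 1) * ν)) * T := by
      calc (N : ℚ) * T ≤ r * (r - 1) * (E.card : ℚ) ^ 2 := hP'
        _ ≤ r * (r - 1) * (ν * T) :=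
            mul_le_mul_of_nonneg_left hνm (mul_nonneg hr0.le (by linarith))
        _ = (r * ((r - 1) * ν)) * T := by ring
    exact le_of_mul_le_mul_right h1 hTpos
  have hfin : (r : ℚ) * (x i) ≤ r * ((r - 1) * ν) := by
    have : ((r * x i : ℕ) : ℚ) ≤ N := by exact_mod_cast hmin
    push_cast at this
    linarith
  have hfin' : (x i : ℚ) ≤ (r - 1) * ν := le_of_mul_le_mul_left hfin hr0
  have hcast : (((r - 1) * ν : ℕ) : ℚ) = ((r : ℚ) - 1) * ν := by
    rw [Nat.cast_mul, Nat.cast_sub (by omega)]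
    norm_num
  have : (x i : ℚ) ≤ (((r - 1) * ν : ℕ) : ℚ) := by rw [hcast]; exact hfin'
  exact_mod_cast this

end Vale.Agent.H6.Ryser
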